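import Vale.Agent.Lib.P202.Lech.Classes5

/-!
# P202 (Lech): Lech's inequality for five classes of Cohen-Macaulay closed fibres

A statement using only Mathlib notions (no definitions of our own).  Let `(R, m) → (S, n)` be a
flat local homomorphism of Noetherian local rings and let `rs` be a sequence of `r` elements of
`n`, weakly regular on the closed fibre `S / m S` (Mathlib's
`RingTheory.Sequence.IsWeaklyRegular`), such that `S / J` has finite length, where
`J = m S + (rs)`: the closed fibre is Cohen-Macaulay of dimension `r`.  Assume one of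

* `n = m S + (g 0, …, g (r + 1))` for some elements `g i` of `S` (embedding codimension at most
  two);
* `n ^ (c + 1) ≤ J n ^ c` for some `c` (`J` is a reduction of `n`);
* `n ^ 2 ≤ J` and `n` is not of the form `x S + J` (the closed fibre has minimal multiplicity);
* `S / J` has length at most four;
* `n ^ 3 ≤ J`, `n` is not of the form `J + (x, y)`, and there are `a b c ∈ n` with
  `n ^ 2 ≤ J + (a b)`, `a c ∈ J` and `b c ∉ J` (the Artinian ring `S / J` has Hilbert function
  `(1, ρ, 1)` with `ρ ≥ 3` and its multiplication form has rank at least two; for instance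
  `S / J` is Gorenstein with cube-zero maximal ideal and embedding dimension at least three).

Then

* `dim S = dim R + r`;
* for every `d ≥ 2`, with `a_N = d! length_R (R / m^N) / N^d` and
  `b_N = (d + r)! length_S (S / n^N) / N^(d + r)`:  `liminf a_N ≤ liminf b_N`;
* hence, if `a_N → eR` and `b_N → eS`, then `eR ≤ eS`.

With `d = dim R` the last item reads `e(R) ≤ e(S)`: Lech's inequality.

Idea of the proof.  For embedding codimension at most two this is the case `ρ = 2` of the
inequality `e(R) ≤ (min (dim R) ρ - 1)! e(S)` (kernel count for a superficial element and a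
Lech type inequality in which the factorial of the number of generators of `n` modulo the ideal
replaces the factorial of the dimension).  If `J` is a reduction of `n`, then
`e(S) = length (S / J) e(R)`; a square-zero, non-principal maximal ideal of `S / J` forces
`n ^ 2 ≤ J n` by flatness (the linear syzygies of the products of two generators lift).  An
Artinian local ring of length at most four has embedding dimension at most two or a square-zero
maximal ideal.  In the fifth case the same lifting of syzygies shows that every product of two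
elements of `n` that lies in `J` lies in `J n`, then `n ^ 2 ≤ J n + (a b)` and finally
`n ^ 3 ≤ J n ^ 2`, so `J` is again a reduction of `n`.
-/

namespace Vale.Agent.Results.P202.CMFibreClasses

open IsLocalRing Filter Vale.Agent.Lib.P202
open scoped ENNReal Nat Topology

theorem result {R S : Type*} [CommRing R] [CommRing S] [IsLocalRing R] [IsLocalRing S]
    [IsNoetherianRing R] [IsNoetherianRing S] [Algebra R S] [IsLocalHom (algebraMap R S)]
    [Module.Flat R S] (rs : List S) (hmem : ∀ r ∈ rs, r ∈ maximalIdeal S)
    (hreg : RingTheory.Sequence.IsWeaklyRegular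
      (S ⧸ (maximalIdeal R).map (algebraMap R S)) rs)
    (J : Ideal S) (hJ : J = (maximalIdeal R).map (algebraMap R S) ⊔ Ideal.ofList rs)
    (hfin : Module.length S (S ⧸ J) ≠ ⊤)
    (h : (∃ g : Fin (rs.length + 2) → S, maximalIdeal S =
          (maximalIdeal R).map (algebraMap R S) ⊔ Ideal.span (Set.range g)) ∨
      (∃ c : ℕ, maximalIdeal S ^ (c + 1) ≤ J * maximalIdeal S ^ c) ∨
      (maximalIdeal S ^ 2 ≤ J ∧ ∀ x : S, maximalIdeal S ≠ Ideal.span {x} ⊔ J) ∨
      Module.length S (S ⧸ J) ≤ 4 ∨
      (maximalIdeal S ^ 3 ≤ J ∧ (∀ x y : S, maximalIdeal S ≠ J ⊔ Ideal.span {x, y}) ∧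
        ∃ a b c : S, a ∈ maximalIdeal S ∧ b ∈ maximalIdeal S ∧ c ∈ maximalIdeal S ∧
          maximalIdeal S ^ 2 ≤ J ⊔ Ideal.span {a * b} ∧ a * c ∈ J ∧ b * c ∉ J)) :
    ringKrullDim S = ringKrullDim R + rs.length ∧
    (∀ d : ℕ, 2 ≤ d →
      liminf (fun N : ℕ => (d ! : ℝ≥0∞) *
          (Module.length R (R ⧸ maximalIdeal R ^ N)).toENNReal / (N : ℝ≥0∞) ^ d) atTop ≤
        liminf (fun N : ℕ => ((d + rs.length) ! : ℝ≥0∞) *
          (Module.length S (S ⧸ maximalIdeal S ^ N)).toENNReal / (N : ℝ≥0∞) ^ (d + rs.length))
          atTop) ∧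
    (∀ (d : ℕ) (eR eS : ℝ≥0∞), 2 ≤ d →
      Tendsto (fun N : ℕ => (d ! : ℝ≥0∞) *
        (Module.length R (R ⧸ maximalIdeal R ^ N)).toENNReal / (N : ℝ≥0∞) ^ d) atTop (𝓝 eR) →
      Tendsto (fun N : ℕ => ((d + rs.length) ! : ℝ≥0∞) *
        (Module.length S (S ⧸ maximalIdeal S ^ N)).toENNReal / (N : ℝ≥0∞) ^ (d + rs.length))
        atTop (𝓝 eS) →
      eR ≤ eS) := by
  have hfin' : Module.length S
      (S ⧸ ((maximalIdeal R).map (algebraMap R S) ⊔ Ideal.ofList rs)) ≠ ⊤ := hJ ▸ hfin
  refine ⟨Lech.ringKrullDim_eq_add_length rs hmem hreg hfin',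
    fun d hd => (Lech.lech_of_classes5 rs hmem hreg J hJ hfin h d hd).1, ?_⟩
  intro d eR eS hd hR hS
  exact (Lech.lech_of_classes5 rs hmem hreg J hJ hfin h d hd).2 eR eS hR hS

end Vale.Agent.Results.P202.CMFibreClasses
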