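import Vale.Agent.Lib.P202.Lech.FactCM

/-!
# P202 (Lech): Cohen-Macaulay closed fibres of embedding codimension at most `ρ`

A statement using only Mathlib notions (no definitions of our own).  Let `(R, m) → (S, n)` be a
flat local homomorphism of Noetherian local rings.  Assume that the closed fibre `S / m S` is
Cohen-Macaulay of dimension `r` and of embedding dimension at most `r + ρ`, `ρ ≥ 1`:

* `rs` is a sequence of `r` elements of `n`, weakly regular on `S / m S`
  (Mathlib's `RingTheory.Sequence.IsWeaklyRegular`), with `S / (m S + (rs))` of finite length;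
* `n = m S + (g 0, …, g (r + ρ - 1))` for some elements `g i` of `S`.

Then

* `dim S = dim R + r`;
* for every `d ≥ 2`, with `a_N = d! length_R (R / m^N) / N^d` and
  `b_N = (d + r)! length_S (S / n^N) / N^(d + r)`:
  `limsup a_N ≤ (min d ρ - 1)! liminf b_N`;
* hence, if `a_N → eR` and `b_N → eS`, then `eR ≤ (min d ρ - 1)! eS`.

With `d = dim R` this reads `e(R) ≤ (min (dim R) ρ - 1)! e(S)`: Lech's inequality itself for
`ρ ≤ 2`, and in general a constant that depends only on the embedding codimension of the closed
fibre and not on the dimension.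

Idea of the proof.  As for embedding codimension two, one reduces to `r = 0` and an infinite
residue field, and divides `S` by a superficial element `y` that is a minimal generator of `n`
modulo `m S`; a count of kernels gives
`(H_R(N+1) - H_R(N)) c ≤ length (S / (m^(N+1) S + (y)))` with `c = length (S / (m S + (y)))`.
The new ingredient is an inequality of Lech type for an ideal `I` of a local ring `(A, n)` with
`n = I + (z_1, …, z_s)`:  `e(I) ≤ s! length (A / I) e(A)` (the classical inequality of Lech has
`(dim A)!`).  It is proved by counting lengths through the iterated colon ideals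
`((I^N : z_1^(t_1)) + (z_1) : z_2^(t_2)) + (z_2) …`: if the iterated colon ideal of `I` for the
exponents `⌊t / a⌋` is the unit ideal, then the one of `I^N` for the exponents `t` contains
`I^(N - a)` (take `a`-th powers), and at most `a^s length (A / I)` exponent vectors fail this.
-/

namespace Vale.Agent.Results.P202.CMFibreEmbCodim

open IsLocalRing Filter Vale.Agent.Lib.P202
open scoped ENNReal Nat Topology

theorem result {R S : Type*} [CommRing R] [CommRing S] [IsLocalRing R] [IsLocalRing S]
    [IsNoetherianRing R] [IsNoetherianRing S] [Algebra R S] [IsLocalHom (algebraMap R S)]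
    [Module.Flat R S] (rs : List S) (hmem : ∀ r ∈ rs, r ∈ maximalIdeal S)
    (hreg : RingTheory.Sequence.IsWeaklyRegular
      (S ⧸ (maximalIdeal R).map (algebraMap R S)) rs)
    (hfin : Module.length S
      (S ⧸ ((maximalIdeal R).map (algebraMap R S) ⊔ Ideal.ofList rs)) ≠ ⊤)
    (ρ : ℕ) (hρ : 1 ≤ ρ) (g : Fin (rs.length + ρ) → S)
    (hg : maximalIdeal S = (maximalIdeal R).map (algebraMap R S) ⊔ Ideal.span (Set.range g)) :
    ringKrullDim S = ringKrullDim R + rs.length ∧
    (∀ d : ℕ, 2 ≤ d →
      limsup (fun N : ℕ => (d ! : ℝ≥0∞) *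
          (Module.length R (R ⧸ maximalIdeal R ^ N)).toENNReal / (N : ℝ≥0∞) ^ d) atTop ≤
        ((min d ρ - 1) ! : ℝ≥0∞) *
          liminf (fun N : ℕ => ((d + rs.length) ! : ℝ≥0∞) *
            (Module.length S (S ⧸ maximalIdeal S ^ N)).toENNReal / (N : ℝ≥0∞) ^ (d + rs.length))
            atTop) ∧
    (∀ (d : ℕ) (eR eS : ℝ≥0∞), 2 ≤ d →
      Tendsto (fun N : ℕ => (d ! : ℝ≥0∞) *
        (Module.length R (R ⧸ maximalIdeal R ^ N)).toENNReal / (N : ℝ≥0∞) ^ d) atTop (𝓝 eR) →
      Tendsto (fun N : ℕ => ((d + rs.length) ! : ℝ≥0∞) *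
        (Module.length S (S ⧸ maximalIdeal S ^ N)).toENNReal / (N : ℝ≥0∞) ^ (d + rs.length))
        atTop (𝓝 eS) →
      eR ≤ ((min d ρ - 1) ! : ℝ≥0∞) * eS) := by
  refine ⟨Lech.ringKrullDim_eq_add_length rs hmem hreg hfin,
    fun d hd => Lech.limsup_le_of_isWeaklyRegular_gen rs hmem hreg hfin ρ hρ g hg d hd, ?_⟩
  intro d eR eS hd hR hS
  have h := Lech.limsup_le_of_isWeaklyRegular_gen rs hmem hreg hfin ρ hρ g hg d hd
  rw [hR.limsup_eq, hS.liminf_eq] at h
  exact h

end Vale.Agent.Results.P202.CMFibreEmbCodim
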