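import Vale.Agent.Lib.P202.Lech.Classes5

/-!
# P202 (Lech): Cohen-Macaulay closed fibres, one statement

A statement using only Mathlib notions (no definitions of our own).  Let `(R, m) → (S, n)` be a
flat local homomorphism of Noetherian local rings and let `rs` be a sequence of `r` elements of
`n`, weakly regular on the closed fibre `S / m S` (Mathlib's
`RingTheory.Sequence.IsWeaklyRegular`), such that `S / J` has finite length, where
`J = m S + (rs)`: the closed fibre is Cohen-Macaulay of dimension `r`.  Write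
`a_N = d! length_R (R / m^N) / N^d` and `b_N = (d + r)! length_S (S / n^N) / N^(d + r)`.  Then

1. `dim S = dim R + r`;
2. for every `ρ ≥ 1`, every family `g` of `r + ρ` elements of `S` with
   `n = m S + (g 0, …, g (r + ρ - 1))` and every `d ≥ 2`:
   `limsup a_N ≤ (min d ρ - 1)! liminf b_N`;
3. for every `d ≥ 2`: `liminf a_N ≤ liminf b_N`, provided that one of the following holds:
   * `n ^ (c + 1) ≤ J n ^ c` for some `c` (`J` is a reduction of `n`);
   * `n ^ 2 ≤ J` and `n` is not of the form `x S + J` (minimal multiplicity);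
   * `S / J` has length at most four;
   * `n ^ 3 ≤ J`, `n` is not of the form `J + (x, y)`, and there are `a b c ∈ n` with
     `n ^ 2 ≤ J + (a b)`, `a c ∈ J` and `b c ∉ J` (the Artinian ring `S / J` has Hilbert
     function `(1, ρ, 1)` with `ρ ≥ 3` and its multiplication form has rank at least two).

With `d = dim R` these read `e(R) ≤ (min (dim R) ρ - 1)! e(S)` for closed fibres of embedding
codimension at most `ρ` (Lech's inequality for `ρ ≤ 2`), and `e(R) ≤ e(S)` in the four cases
of item 3.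

This is the conjunction of the statements of the hand-ins `CMFibreEmbCodim` (items 1, 2) and
`CMFibreClasses` (item 3; its first alternative is the case `ρ = 2` of item 2), without the
restatements with limits.
-/

namespace Vale.Agent.Results.P202.CMFibreOmnibus

open IsLocalRing Filter Vale.Agent.Lib.P202
open scoped ENNReal Nat Topology

theorem result {R S : Type*} [CommRing R] [CommRing S] [IsLocalRing R] [IsLocalRing S]
    [IsNoetherianRing R] [IsNoetherianRing S] [Algebra R S] [IsLocalHom (algebraMap R S)]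
    [Module.Flat R S] (rs : List S) (hmem : ∀ r ∈ rs, r ∈ maximalIdeal S)
    (hreg : RingTheory.Sequence.IsWeaklyRegular
      (S ⧸ (maximalIdeal R).map (algebraMap R S)) rs)
    (J : Ideal S) (hJ : J = (maximalIdeal R).map (algebraMap R S) ⊔ Ideal.ofList rs)
    (hfin : Module.length S (S ⧸ J) ≠ ⊤) :
    ringKrullDim S = ringKrullDim R + rs.length ∧
    (∀ (ρ : ℕ) (g : Fin (rs.length + ρ) → S), 1 ≤ ρ →
      maximalIdeal S = (maximalIdeal R).map (algebraMap R S) ⊔ Ideal.span (Set.range g) →
      ∀ d : ℕ, 2 ≤ d →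
        limsup (fun N : ℕ => (d ! : ℝ≥0∞) *
            (Module.length R (R ⧸ maximalIdeal R ^ N)).toENNReal / (N : ℝ≥0∞) ^ d) atTop ≤
          ((min d ρ - 1) ! : ℝ≥0∞) *
            liminf (fun N : ℕ => ((d + rs.length) ! : ℝ≥0∞) *
              (Module.length S (S ⧸ maximalIdeal S ^ N)).toENNReal /
                (N : ℝ≥0∞) ^ (d + rs.length)) atTop) ∧
    ((∃ c : ℕ, maximalIdeal S ^ (c + 1) ≤ J * maximalIdeal S ^ c) ∨
      (maximalIdeal S ^ 2 ≤ J ∧ ∀ x : S, maximalIdeal S ≠ Ideal.span {x} ⊔ J) ∨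
      Module.length S (S ⧸ J) ≤ 4 ∨
      (maximalIdeal S ^ 3 ≤ J ∧ (∀ x y : S, maximalIdeal S ≠ J ⊔ Ideal.span {x, y}) ∧
        ∃ a b c : S, a ∈ maximalIdeal S ∧ b ∈ maximalIdeal S ∧ c ∈ maximalIdeal S ∧
          maximalIdeal S ^ 2 ≤ J ⊔ Ideal.span {a * b} ∧ a * c ∈ J ∧ b * c ∉ J) →
      ∀ d : ℕ, 2 ≤ d →
        liminf (fun N : ℕ => (d ! : ℝ≥0∞) *
            (Module.length R (R ⧸ maximalIdeal R ^ N)).toENNReal / (N : ℝ≥0∞) ^ d) atTop ≤
          liminf (fun N : ℕ => ((d + rs.length) ! : ℝ≥0∞) *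
            (Module.length S (S ⧸ maximalIdeal S ^ N)).toENNReal /
              (N : ℝ≥0∞) ^ (d + rs.length)) atTop) := by
  have hfin' : Module.length S
      (S ⧸ ((maximalIdeal R).map (algebraMap R S) ⊔ Ideal.ofList rs)) ≠ ⊤ := hJ ▸ hfin
  refine ⟨Lech.ringKrullDim_eq_add_length rs hmem hreg hfin', ?_, ?_⟩
  · intro ρ g hρ hg d hd
    exact Lech.limsup_le_of_isWeaklyRegular_gen rs hmem hreg hfin' ρ hρ g hg d hd
  · intro h d hd
    exact (Lech.lech_of_classes5 rs hmem hreg J hJ hfin (Or.inr h) d hd).1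

end Vale.Agent.Results.P202.CMFibreOmnibus
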