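import Vale.Agent.Lib.P202.Lech.QuotGeneral

/-!
# P202 (Lech): quotients of flat local algebras with Cohen-Macaulay closed fibre

A statement using only Mathlib notions (no definitions of our own).  Let `(R, m) → (S, n)` be a
flat local homomorphism of Noetherian local rings whose closed fibre `S / m S` is
Cohen-Macaulay of dimension `r`: there is a sequence `rs` of `r` elements of `n`, weakly regular
on `S / m S`, with `S / (m S + (rs))` of finite length.  Let `fs` be a list of `s` elements of
`S` generating a proper ideal, and `T = S / (fs)` (a local ring, in general not flat over `R`).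
For `d ≥ 2` and `δ = d + r - s ≥ 1` put `a_N = d! length_R (R / m^N) / N^d` and
`b_N = δ! length_T (T / n_T^N) / N^δ`.  Then

* `limsup a_N ≤ (d - 1)! liminf b_N`;
* if moreover `n = m S + (g 0, …, g (r + 1))` for some elements `g i` of `S` (the closed fibre
  has embedding codimension at most two), then `limsup a_N ≤ liminf b_N`.

With `d = dim R` one has `dim S = d + r`, and when `dim T = dim S - s` (that is, `fs` is part of
a system of parameters of `S`) the two inequalities read `e(R) ≤ (d - 1)! e(T)` and
`e(R) ≤ e(T)`.  For `fs = []` these are the statements for `S` itself.  When the closed fibre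
of `S` is regular (`n = m S + (rs)`), `T` runs through the complete intersections over `R`
presented as such quotients.

Idea of the proof: the inequalities for `S` are proved in the form of an upper bound for
`a_N` together with a lower bound `e N^(d + r) ≤ (d + r)! H_S(N) + K N^(d + r - 1)` for the
Hilbert-Samuel function of `S`; the Hilbert-Samuel function of a local ring with infinite
residue field has matching upper and lower bounds of this kind, and an upper bound for
`A / (f)` gives one for `A`, so the lower bound passes from `A` to `A / (f)`.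
-/

namespace Vale.Agent.Results.P202.CMFibreQuotient

open IsLocalRing Filter Vale.Agent.Lib.P202
open scoped ENNReal Nat Topology

theorem result {R S : Type*} [CommRing R] [CommRing S] [IsLocalRing R] [IsLocalRing S]
    [IsNoetherianRing R] [IsNoetherianRing S] [Algebra R S] [IsLocalHom (algebraMap R S)]
    [Module.Flat R S] (rs : List S) (hmem : ∀ r ∈ rs, r ∈ maximalIdeal S)
    (hreg : RingTheory.Sequence.IsWeaklyRegular
      (S ⧸ (maximalIdeal R).map (algebraMap R S)) rs)
    (hfin : Module.length S
      (S ⧸ ((maximalIdeal R).map (algebraMap R S) ⊔ Ideal.ofList rs)) ≠ ⊤)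
    (fs : List S) [IsLocalRing (S ⧸ Ideal.ofList fs)]
    (d δ : ℕ) (hd : 2 ≤ d) (hδ : 1 ≤ δ) (hlen : δ + fs.length = d + rs.length) :
    limsup (fun N : ℕ => (d ! : ℝ≥0∞) *
        (Module.length R (R ⧸ maximalIdeal R ^ N)).toENNReal / (N : ℝ≥0∞) ^ d) atTop ≤
      ((d - 1) ! : ℝ≥0∞) * liminf (fun N : ℕ => (δ ! : ℝ≥0∞) *
        (Module.length (S ⧸ Ideal.ofList fs)
          ((S ⧸ Ideal.ofList fs) ⧸ maximalIdeal (S ⧸ Ideal.ofList fs) ^ N)).toENNReal /
            (N : ℝ≥0∞) ^ δ) atTop ∧
    ((∃ g : Fin (rs.length + 2) → S, maximalIdeal S =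
        (maximalIdeal R).map (algebraMap R S) ⊔ Ideal.span (Set.range g)) →
      limsup (fun N : ℕ => (d ! : ℝ≥0∞) *
          (Module.length R (R ⧸ maximalIdeal R ^ N)).toENNReal / (N : ℝ≥0∞) ^ d) atTop ≤
        liminf (fun N : ℕ => (δ ! : ℝ≥0∞) *
          (Module.length (S ⧸ Ideal.ofList fs)
            ((S ⧸ Ideal.ofList fs) ⧸ maximalIdeal (S ⧸ Ideal.ofList fs) ^ N)).toENNReal /
              (N : ℝ≥0∞) ^ δ) atTop) := by
  have hne : Ideal.ofList fs ≠ ⊤ := by
    intro h
    have h1 : (1 : S ⧸ Ideal.ofList fs) = 0 := by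
      rw [← map_one (Ideal.Quotient.mk (Ideal.ofList fs)), Ideal.Quotient.eq_zero_iff_mem, h]
      trivial
    exact one_ne_zero h1
  have hfs : ∀ f ∈ fs, f ∈ maximalIdeal S := fun f hf =>
    IsLocalRing.le_maximalIdeal hne (Ideal.subset_span hf)
  have hfun : ∀ N : ℕ, Module.length (S ⧸ Ideal.ofList fs)
      ((S ⧸ Ideal.ofList fs) ⧸ maximalIdeal (S ⧸ Ideal.ofList fs) ^ N) =
      Module.length S (S ⧸ (maximalIdeal S ^ N ⊔ Ideal.ofList fs)) :=
    fun N => Lech.length_quotient_pow (Ideal.ofList fs) N
  have hmain := Lech.limsup_le_of_cmmod_quot rs.length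
    (Lech.cmmod_of_isWeaklyRegular _ rs hmem hreg hfin) fs hfs d δ hd hδ hlen
  simp only [hfun]
  exact hmain

end Vale.Agent.Results.P202.CMFibreQuotient
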